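import Mathlib

/-!
# P207, line N3, P1b: deck transformations, pull backs of coverings, lifts of families

* `Deck e`: the deck transformations of `e : Q → M`; it acts on `Q` and on the pull back
  `PB e pt = {(q, f) | e q = pt f}`; for a covering with simply connected total space it is
  transitive on the fibres, free, proper and (over a compact base) cocompact.
* `exists_liftFam`: a family `H (v, ·)`, `v` in a topological vector space, `H (0, ·) = id`, lifts
  through a covering.
-/

open Set Filter Topology
open scoped unitInterval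

noncomputable section

set_option linter.unusedSectionVars false

namespace Vale.Agent.P207.N3.H465

/-! ### the deck group -/

section Deck

variable {Q M : Type} [TopologicalSpace Q]

/-- the deck transformations of `e` -/
def Deck (e : Q → M) : Subgroup (Q ≃ₜ Q) where
  carrier := {h | ∀ q, e (h q) = e q}
  mul_mem' := by
    intro a b ha hb q
    change e (a (b q)) = e q
    rw [ha, hb]
  one_mem' := fun _ => rfl
  inv_mem' := by
    intro a ha q
    change e (a.symm q) = e q
    have h := ha (a.symm q)
    rw [a.apply_symm_apply] at h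
    exact h.symm

namespace Deck

variable {e : Q → M}

instance : MulAction (Deck e) Q where
  smul g q := g.1 q
  one_smul _ := rfl
  mul_smul _ _ _ := rfl

theorem smul_eq (g : Deck e) (q : Q) : g • q = g.1 q := rfl

theorem e_smul (g : Deck e) (q : Q) : e (g • q) = e q := g.2 q

theorem continuous_smul (g : Deck e) : Continuous fun q : Q => g • q := g.1.continuous

instance : ContinuousConstSMul (Deck e) Q := ⟨continuous_smul⟩

theorem ext' {g g' : Deck e} (h : ∀ q : Q, g • q = g' • q) : g = g' :=
  Subtype.ext (Homeomorph.ext h)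

variable [TopologicalSpace M]

/-- a deck transformation with a fixed point is trivial -/
theorem eq_of_smul_eq [PreconnectedSpace Q] (cov : IsCoveringMap e) {g g' : Deck e} {q : Q}
    (h : g • q = g' • q) : g = g' := by
  apply ext'
  intro q'
  have h1 := cov.eq_of_comp_eq (continuous_smul g) (continuous_smul g')
    (funext fun x => (g.2 x).trans (g'.2 x).symm) q h
  exact congrFun h1 q'

theorem free [PreconnectedSpace Q] (cov : IsCoveringMap e) {g : Deck e} {q : Q}
    (h : g • q = q) : g = 1 :=
  eq_of_smul_eq cov (g' := 1) (by rw [h, one_smul])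

/-- the deck group is transitive on the fibres -/
theorem exists_smul_eq [SimplyConnectedSpace Q] [LocallyPathConnectedSpace Q]
    (cov : IsCoveringMap e) {q q' : Q} (h : e q = e q') : ∃ g : Deck e, g • q = q' := by
  let ec : C(Q, M) := ⟨e, cov.continuous⟩
  obtain ⟨F, ⟨hF1, hF2⟩, -⟩ := cov.existsUnique_continuousMap_lifts ec q q' h.symm
  obtain ⟨F', ⟨hF1', hF2'⟩, -⟩ := cov.existsUnique_continuousMap_lifts ec q' q h
  have hF2a : ∀ x, e (F x) = e x := fun x => congrFun hF2 x
  have hF2a' : ∀ x, e (F' x) = e x := fun x => congrFun hF2' x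
  have h1 : (fun x => F' (F x)) = fun x => x :=
    cov.eq_of_comp_eq (F'.continuous.comp F.continuous) continuous_id
      (by funext x; simp [hF2a, hF2a']) q (by simp [hF1, hF1'])
  have h2 : (fun x => F (F' x)) = fun x => x :=
    cov.eq_of_comp_eq (F.continuous.comp F'.continuous) continuous_id
      (by funext x; simp [hF2a, hF2a']) q' (by simp [hF1, hF1'])
  let φ : Q ≃ₜ Q :=
    { toFun := F
      invFun := F'
      left_inv := fun x => congrFun h1 x
      right_inv := fun x => congrFun h2 x
      continuous_toFun := F.continuous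
      continuous_invFun := F'.continuous }
  exact ⟨⟨φ, hF2a⟩, hF1⟩

/-- the action is proper -/
theorem finite_of_isCompact [SimplyConnectedSpace Q] [LocallyPathConnectedSpace Q] [T2Space M]
    (cov : IsCoveringMap e) {K : Set Q} (hK : IsCompact K) :
    {g : Deck e | ∃ q ∈ K, g • q ∈ K}.Finite := by
  let R : Set (Q × Q) := (K ×ˢ K) ∩ {p | e p.1 = e p.2}
  have hR : IsCompact R := (hK.prod hK).inter_right
    (isClosed_eq (cov.continuous.comp continuous_fst) (cov.continuous.comp continuous_snd))
  have key : {g : Deck e | ∃ q, (q, g • q) ∈ R}.Finite := by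
    refine hR.induction_on (p := fun S => {g : Deck e | ∃ q, (q, g • q) ∈ S}.Finite) ?_ ?_ ?_ ?_
    · simp
    · intro s t hst ht
      exact ht.subset fun g ⟨q, hq⟩ => ⟨q, hst hq⟩
    · intro s t hs ht
      refine (hs.union ht).subset ?_
      rintro g ⟨q, hq | hq⟩
      · exact Or.inl ⟨q, hq⟩
      · exact Or.inr ⟨q, hq⟩
    · rintro ⟨q, q'⟩ ⟨-, hqq⟩
      obtain ⟨g₀, hg₀⟩ := exists_smul_eq cov hqq
      obtain ⟨φ, hφ, hφe⟩ := cov.isLocalHomeomorph q'
      have hinj : InjOn e φ.source := by rw [hφe]; exact φ.injOn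
      have hU : φ.source ∈ 𝓝 q' := φ.open_source.mem_nhds hφ
      have hU' : (fun x : Q => g₀ • x) ⁻¹' φ.source ∈ 𝓝 q :=
        (continuous_smul g₀).continuousAt.preimage_mem_nhds (by rw [hg₀]; exact hU)
      refine ⟨((fun x : Q => g₀ • x) ⁻¹' φ.source) ×ˢ φ.source,
        mem_nhdsWithin_of_mem_nhds (prod_mem_nhds hU' hU), ?_⟩
      refine (finite_singleton g₀).subset ?_
      rintro g ⟨x, hx1, hx2⟩
      have h1 : g • x = g₀ • x := hinj hx2 hx1 ((g.2 x).trans (g₀.2 x).symm)
      exact eq_of_smul_eq cov h1
  refine key.subset ?_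
  rintro g ⟨q, hq, hgq⟩
  exact ⟨q, ⟨hq, hgq⟩, (e_smul g q).symm⟩

/-- coverings of connected spaces are surjective -/
theorem surjective_of_cov [PreconnectedSpace M] [Nonempty Q] (cov : IsCoveringMap e) :
    Function.Surjective e := by
  have h1 : IsOpen (range e) := cov.isOpenMap.isOpen_range
  have h2 : IsClosed (range e) := by
    rw [← isOpen_compl_iff, isOpen_iff_mem_nhds]
    intro x hx
    obtain ⟨-, U, hxU, hUo, -, H, hH⟩ := cov x
    refine mem_of_superset (hUo.mem_nhds hxU) ?_
    rintro y hyU ⟨q, rfl⟩
    apply hx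
    let i := (H ⟨q, hyU⟩).2
    refine ⟨(H.symm (⟨x, hxU⟩, i)).1, ?_⟩
    have h3 := hH (H.symm (⟨x, hxU⟩, i))
    rw [H.apply_symm_apply] at h3
    exact h3.symm
  have h3 : range e = univ := IsClopen.eq_univ ⟨h2, h1⟩ (range_nonempty e)
  exact range_eq_univ.1 h3

/-- the action is cocompact over a compact base -/
theorem exists_isCompact [SimplyConnectedSpace Q] [LocallyPathConnectedSpace Q]
    [LocallyCompactSpace Q] [CompactSpace M] (cov : IsCoveringMap e)
    (hs : Function.Surjective e) : ∃ K : Set Q, IsCompact K ∧ ∀ q, ∃ g : Deck e, g • q ∈ K := by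
  choose C hC hCn using fun q : Q => exists_compact_mem_nhds q
  obtain ⟨t, ht⟩ := isCompact_univ.elim_nhds_subcover (fun x : M => e '' C (hs x).choose)
    (fun x _ => by
      have h1 := cov.isOpenMap.image_mem_nhds (hCn (hs x).choose)
      rwa [(hs x).choose_spec] at h1)
  refine ⟨⋃ x ∈ t, C (hs x).choose, t.isCompact_biUnion fun x _ => hC _, fun q => ?_⟩
  have h1 := ht.2 (mem_univ (e q))
  simp only [mem_iUnion] at h1
  obtain ⟨x, hx, q', hq', he⟩ := h1
  obtain ⟨g, hg⟩ := exists_smul_eq cov he.symm
  refine ⟨g, ?_⟩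
  rw [hg]
  exact mem_iUnion₂.2 ⟨x, hx, hq'⟩

end Deck

end Deck

/-! ### pull back of a covering -/

section PB

variable {Q M F : Type} [TopologicalSpace Q] [TopologicalSpace F]

/-- the pull back of `e : Q → M` along `pt : F → M` -/
def PB (e : Q → M) (pt : F → M) : Type := {p : Q × F // e p.1 = pt p.2}

namespace PB

variable {e : Q → M} {pt : F → M}

instance : TopologicalSpace (PB e pt) :=
  inferInstanceAs (TopologicalSpace {p : Q × F // e p.1 = pt p.2})

/-- the point of `Q` -/
def q (x : PB e pt) : Q := x.1.1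

/-- the point of `F` -/
def f (x : PB e pt) : F := x.1.2

/-- constructor -/
def mk (q : Q) (f : F) (h : e q = pt f) : PB e pt := ⟨(q, f), h⟩

theorem e_q (x : PB e pt) : e x.q = pt x.f := x.2

@[ext]
theorem ext {x y : PB e pt} (h1 : x.q = y.q) (h2 : x.f = y.f) : x = y :=
  Subtype.ext (Prod.ext h1 h2)

@[simp] theorem q_mk (q : Q) (f : F) (h : e q = pt f) : (mk q f h).q = q := rfl

@[simp] theorem f_mk (q : Q) (f : F) (h : e q = pt f) : (mk q f h).f = f := rfl

theorem continuous_q : Continuous (q : PB e pt → Q) := continuous_fst.comp continuous_subtype_val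

theorem continuous_f : Continuous (f : PB e pt → F) := continuous_snd.comp continuous_subtype_val

theorem isEmbedding_val : IsEmbedding (Subtype.val : PB e pt → Q × F) := IsEmbedding.subtypeVal

theorem continuous_iff {A : Type} [TopologicalSpace A] {u : A → PB e pt} :
    Continuous u ↔ Continuous (fun a => (u a).q) ∧ Continuous fun a => (u a).f := by
  constructor
  · intro h
    exact ⟨continuous_q.comp h, continuous_f.comp h⟩
  · rintro ⟨h1, h2⟩
    exact Continuous.subtype_mk (h1.prodMk h2) _

instance : MulAction (Deck e) (PB e pt) where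
  smul g x := mk (g • x.q) x.f ((g.2 x.q).trans x.e_q)
  one_smul x := ext (one_smul _ x.q) rfl
  mul_smul g g' x := ext (mul_smul g g' x.q) rfl

@[simp] theorem q_smul (g : Deck e) (x : PB e pt) : (g • x).q = g • x.q := rfl

@[simp] theorem f_smul (g : Deck e) (x : PB e pt) : (g • x).f = x.f := rfl

theorem continuous_smul (g : Deck e) : Continuous fun x : PB e pt => g • x :=
  continuous_iff.2 ⟨(Deck.continuous_smul g).comp continuous_q, continuous_f⟩

instance : ContinuousConstSMul (Deck e) (PB e pt) := ⟨continuous_smul⟩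

variable [TopologicalSpace M]

theorem isClosedEmbedding_val [T2Space M] (he : Continuous e) (hpt : Continuous pt) :
    IsClosedEmbedding (Subtype.val : PB e pt → Q × F) :=
  (isClosed_eq (he.comp continuous_fst) (hpt.comp continuous_snd)).isClosedEmbedding_subtypeVal

/-- the projection of the pull back is a covering -/
theorem isCoveringMap_f (cov : IsCoveringMap e) (hpt : Continuous pt) :
    IsCoveringMap (f : PB e pt → F) := by
  intro y
  have hy := cov (pt y)
  have hfib : Nonempty (e ⁻¹' {pt y} ≃ₜ (f : PB e pt → F) ⁻¹' {y}) := by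
    refine ⟨{ toFun := fun z => ⟨mk z.1 y z.2, rfl⟩
              invFun := fun z => ⟨z.1.q, by
                have h1 := z.1.e_q
                have h2 : z.1.f = y := z.2
                rw [h2] at h1
                exact h1⟩
              left_inv := fun z => rfl
              right_inv := fun z => Subtype.ext (ext rfl (by
                have h2 : z.1.f = y := z.2
                exact h2.symm))
              continuous_toFun := ?_
              continuous_invFun := ?_ }⟩
    · refine Continuous.subtype_mk ?_ _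
      rw [continuous_iff]
      exact ⟨continuous_subtype_val, continuous_const⟩
    · exact Continuous.subtype_mk (continuous_q.comp continuous_subtype_val) _
  suffices hs : IsEvenlyCovered (f : PB e pt → F) y (e ⁻¹' {pt y}) from
    hs.of_fiber_homeomorph hfib.some
  obtain ⟨hd, U, hxU, hUo, hUo', H, hH⟩ := hy
  refine ⟨hd, pt ⁻¹' U, hxU, hUo.preimage hpt, (hUo.preimage hpt).preimage continuous_f, ?_⟩
  have hmem : ∀ x : (f : PB e pt → F) ⁻¹' (pt ⁻¹' U), x.1.q ∈ e ⁻¹' U := fun x => by
    change e x.1.q ∈ U
    rw [x.1.e_q]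
    exact x.2
  have hsymm : ∀ (z : F) (hz : pt z ∈ U) (i : e ⁻¹' {pt y}),
      e (H.symm (⟨pt z, hz⟩, i)).1 = pt z := fun z hz i => by
    have h3 := hH (H.symm (⟨pt z, hz⟩, i))
    rw [H.apply_symm_apply] at h3
    exact h3.symm
  refine ⟨{ toFun := fun x => (⟨x.1.f, x.2⟩, (H ⟨x.1.q, hmem x⟩).2)
            invFun := fun z => ⟨mk (H.symm (⟨pt z.1.1, z.1.2⟩, z.2)).1 z.1.1
              (hsymm z.1.1 z.1.2 z.2), z.1.2⟩
            left_inv := ?_
            right_inv := ?_
            continuous_toFun := ?_
            continuous_invFun := ?_ }, fun x => rfl⟩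
  · intro x
    apply Subtype.ext
    refine ext ?_ rfl
    change (H.symm (⟨pt x.1.f, x.2⟩, (H ⟨x.1.q, hmem x⟩).2)).1 = x.1.q
    have h1 : ((⟨pt x.1.f, x.2⟩, (H ⟨x.1.q, hmem x⟩).2) : U × (e ⁻¹' {pt y})) =
        H ⟨x.1.q, hmem x⟩ := by
      refine Prod.ext (Subtype.ext ?_) rfl
      change pt x.1.f = _
      rw [hH]
      exact x.1.e_q.symm
    rw [h1, H.symm_apply_apply]
  · rintro ⟨⟨z, hz⟩, i⟩
    refine Prod.ext rfl ?_
    change (H ⟨(H.symm (⟨pt z, hz⟩, i)).1, _⟩).2 = i
    have h1 : (⟨(H.symm (⟨pt z, hz⟩, i)).1, (H.symm (⟨pt z, hz⟩, i)).2⟩ : e ⁻¹' U) =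
        H.symm (⟨pt z, hz⟩, i) := rfl
    rw [h1, H.apply_symm_apply]
  · refine Continuous.prodMk ?_ ?_
    · exact Continuous.subtype_mk (continuous_f.comp continuous_subtype_val) _
    · refine continuous_snd.comp (H.continuous.comp ?_)
      exact Continuous.subtype_mk (continuous_q.comp continuous_subtype_val) _
  · refine Continuous.subtype_mk (continuous_iff.2 ⟨?_, ?_⟩) _
    · refine continuous_subtype_val.comp (H.symm.continuous.comp ?_)
      refine Continuous.prodMk ?_ continuous_snd
      exact Continuous.subtype_mk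
        (hpt.comp (continuous_subtype_val.comp continuous_fst)) _
    · exact continuous_subtype_val.comp continuous_fst

theorem eq_of_smul_eq [PreconnectedSpace Q] (cov : IsCoveringMap e) {g g' : Deck e}
    {x : PB e pt} (h : g • x = g' • x) : g = g' :=
  Deck.eq_of_smul_eq cov (q := x.q) (congrArg q h)

theorem free [PreconnectedSpace Q] (cov : IsCoveringMap e) {g : Deck e} {x : PB e pt}
    (h : g • x = x) : g = 1 :=
  Deck.free cov (q := x.q) (congrArg q h)

/-- transitivity on the fibres -/
theorem exists_smul_eq [SimplyConnectedSpace Q] [LocallyPathConnectedSpace Q]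
    (cov : IsCoveringMap e) {x y : PB e pt} (h : x.f = y.f) : ∃ g : Deck e, g • x = y := by
  obtain ⟨g, hg⟩ := Deck.exists_smul_eq cov (q := x.q) (q' := y.q) (by rw [x.e_q, y.e_q, h])
  exact ⟨g, ext hg h⟩

theorem finite_of_isCompact [SimplyConnectedSpace Q] [LocallyPathConnectedSpace Q] [T2Space M]
    (cov : IsCoveringMap e) {K : Set (PB e pt)} (hK : IsCompact K) :
    {g : Deck e | ∃ x ∈ K, g • x ∈ K}.Finite := by
  refine (Deck.finite_of_isCompact cov (hK.image continuous_q)).subset ?_
  rintro g ⟨x, hx, hgx⟩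
  exact ⟨x.q, mem_image_of_mem _ hx, mem_image_of_mem q hgx⟩

theorem exists_isCompact [SimplyConnectedSpace Q] [LocallyPathConnectedSpace Q]
    [LocallyCompactSpace Q] [T2Space M] [CompactSpace M] [CompactSpace F]
    (cov : IsCoveringMap e) (hpt : Continuous pt) (hs : Function.Surjective e) :
    ∃ K : Set (PB e pt), IsCompact K ∧ ∀ x, ∃ g : Deck e, g • x ∈ K := by
  obtain ⟨K, hK, h⟩ := Deck.exists_isCompact cov hs
  refine ⟨Subtype.val ⁻¹' (K ×ˢ univ),
    (isClosedEmbedding_val cov.continuous hpt).isCompact_preimage (hK.prod isCompact_univ),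
    fun x => ?_⟩
  obtain ⟨g, hg⟩ := h x.q
  exact ⟨g, hg, mem_univ _⟩

end PB

end PB

/-! ### lifts of families of maps -/

section Lift

variable {Y Z V : Type} [TopologicalSpace Y] [TopologicalSpace Z] {π : Y → Z}
variable [AddCommGroup V] [Module ℝ V] [TopologicalSpace V] [ContinuousSMul ℝ V]

/-- two lifts of a family which start equally are equal -/
theorem lift_unique [IsTopologicalAddGroup V] (cov : IsCoveringMap π) {K K' : V → Y}
    (hK : Continuous K) (hK' : Continuous K') (h : ∀ v, π (K v) = π (K' v)) (h0 : K 0 = K' 0) :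
    K = K' := by
  have : PreconnectedSpace V := by
    have := (inferInstance : PathConnectedSpace V)
    infer_instance
  exact cov.eq_of_comp_eq hK hK' (funext h) 0 h0

/-- a family of maps `H (v, ·)` with `H (0, ·) = id` lifts through a covering -/
theorem exists_liftFam (cov : IsCoveringMap π) (H : V × Z → Z) (hH : Continuous H)
    (h0 : ∀ z, H (0, z) = z) :
    ∃ K : V × Y → Y, Continuous K ∧ (∀ v y, π (K (v, y)) = H (v, π y)) ∧ ∀ y, K (0, y) = y := by
  let Hm : C(I × (V × Y), Z) := ⟨fun p => H ((p.1 : ℝ) • p.2.1, π p.2.2), by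
    refine hH.comp (Continuous.prodMk ?_ ?_)
    · exact (continuous_subtype_val.comp continuous_fst).smul
        (continuous_fst.comp continuous_snd)
    · exact cov.continuous.comp (continuous_snd.comp continuous_snd)⟩
  let f : C(V × Y, Y) := ⟨fun p => p.2, continuous_snd⟩
  have hHm : ∀ (s : I) (v : V) (y : Y), Hm (s, (v, y)) = H ((s : ℝ) • v, π y) := fun _ _ _ => rfl
  have H_0 : ∀ a : V × Y, Hm (0, a) = π (f a) := by
    rintro ⟨v, y⟩
    rw [hHm]
    simp only [Icc.coe_zero, zero_smul, h0]
    rfl
  let L := cov.liftHomotopy Hm f H_0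
  have hL : ∀ (s : I) (v : V) (y : Y), π (L (s, (v, y))) = H ((s : ℝ) • v, π y) := fun s v y =>
    congrFun (cov.liftHomotopy_lifts Hm f H_0) (s, (v, y))
  have hL0 : ∀ (v : V) (y : Y), L (0, (v, y)) = y := fun v y =>
    cov.liftHomotopy_zero Hm f H_0 (v, y)
  refine ⟨fun p => L (1, p), L.continuous.comp (Continuous.prodMk_right 1), ?_, ?_⟩
  · intro v y
    have h1 := hL 1 v y
    simp only [Icc.coe_one, one_smul] at h1
    exact h1
  · intro y
    have h1 : (fun s : I => L (s, ((0 : V), y))) = fun _ => y := by
      refine cov.eq_of_comp_eq (L.continuous.comp (Continuous.prodMk_left _)) continuous_const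
        ?_ 0 (hL0 0 y)
      funext s
      simp only [Function.comp_apply, hL, smul_zero, h0]
    exact congrFun h1 1

/-- the lift of a family -/
def liftFam (cov : IsCoveringMap π) (H : V × Z → Z) (hH : Continuous H)
    (h0 : ∀ z, H (0, z) = z) : V × Y → Y := (exists_liftFam cov H hH h0).choose

section

variable (cov : IsCoveringMap π) (H : V × Z → Z) (hH : Continuous H) (h0 : ∀ z, H (0, z) = z)

theorem continuous_liftFam : Continuous (liftFam cov H hH h0) :=
  (exists_liftFam cov H hH h0).choose_spec.1

theorem liftFam_proj (v : V) (y : Y) :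
    π (liftFam cov H hH h0 (v, y)) = H (v, π y) :=
  (exists_liftFam cov H hH h0).choose_spec.2.1 v y

theorem liftFam_zero (y : Y) : liftFam cov H hH h0 (0, y) = y :=
  (exists_liftFam cov H hH h0).choose_spec.2.2 y

theorem continuous_liftFam_left (y : Y) : Continuous fun v => liftFam cov H hH h0 (v, y) :=
  (continuous_liftFam cov H hH h0).comp (Continuous.prodMk_left y)

theorem continuous_liftFam_right (v : V) : Continuous fun y => liftFam cov H hH h0 (v, y) :=
  (continuous_liftFam cov H hH h0).comp (Continuous.prodMk_right v)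

variable [IsTopologicalAddGroup V]

/-- characterisation of the lift -/
theorem eq_liftFam {y : Y} {K : V → Y} (hK : Continuous K) (h1 : ∀ v, π (K v) = H (v, π y))
    (h2 : K 0 = y) (v : V) : K v = liftFam cov H hH h0 (v, y) := by
  have h3 := lift_unique cov hK (continuous_liftFam_left cov H hH h0 y)
    (fun v => by rw [h1, liftFam_proj cov H hH h0]) (by rw [h2, liftFam_zero cov H hH h0])
  exact congrFun h3 v

/-- the lift commutes with the maps which commute with the family -/
theorem liftFam_comm {α : Y → Y} (hα : Continuous α) {β : Z → Z} (hαβ : ∀ y, π (α y) = β (π y))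
    {c : V → V} (hc : Continuous c) (hc0 : c 0 = 0) (hβ : ∀ v z, H (v, β z) = β (H (c v, z)))
    (v : V) (y : Y) : liftFam cov H hH h0 (v, α y) = α (liftFam cov H hH h0 (c v, y)) := by
  refine (eq_liftFam cov H hH h0 (K := fun v => α (liftFam cov H hH h0 (c v, y))) ?_ ?_ ?_ v).symm
  · exact hα.comp ((continuous_liftFam_left cov H hH h0 y).comp hc)
  · intro v
    rw [hαβ, liftFam_proj cov H hH h0, ← hβ, hαβ]
  · rw [hc0, liftFam_zero cov H hH h0]

/-- the lift of a (local) group action of `V` is an action -/
theorem liftFam_add (hadd : ∀ v w z, H (v + w, z) = H (v, H (w, z))) (v w : V) (y : Y) :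
    liftFam cov H hH h0 (v + w, y) = liftFam cov H hH h0 (v, liftFam cov H hH h0 (w, y)) := by
  refine eq_liftFam cov H hH h0 (K := fun v => liftFam cov H hH h0 (v + w, y)) ?_ ?_ ?_ v
  · exact (continuous_liftFam_left cov H hH h0 y).comp (continuous_add_const w)
  · intro v
    rw [liftFam_proj cov H hH h0, liftFam_proj cov H hH h0, hadd]
  · rw [zero_add]

end

end Lift

end Vale.Agent.P207.N3.H465
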